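import Vale.Agent.P256.H465.StepII
import Vale.Agent.P256.H387.Iface

/-! Case 5c(ii) for the representations `KRep` of the interface: `T ≤ C S + δ α²` for a
representation with `γ = 0`, and the combination of the representations with bases `f` and
`c₁ = z - f / k`. -/

set_option linter.all false

namespace Vale.Agent.P256.H465

open Filter Topology Matrix Vale.Agent.P256 Vale.Agent.P256.H326 Vale.Agent.P256.H201
open Vale.Agent.P256.H387 (KRep Crd NK Mf Gs DGs SLe)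

/-- `R ≤ δ Q` for all `δ > 0` -/
def Nul {L X : Type*} (F : Filter L) (G : Filter X) (Q R : L → X → ℝ) : Prop :=
  ∀ δ : ℝ, 0 < δ → SosF F G (fun l x => δ * Q l x - R l x)

section Nul

variable {L X : Type*} {F : Filter L} {G : Filter X} {Q R R' : L → X → ℝ}

theorem Nul.add (H : Nul F G Q R) (H' : Nul F G Q R') : Nul F G Q (fun l x => R l x + R' l x) :=
  fun δ hδ => ((H (δ / 2) (by positivity)).add (H' (δ / 2) (by positivity))).congr'
    fun l x => by ring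

theorem Nul.congr' (H : Nul F G Q R) (e : ∀ l x, R' l x = R l x) : Nul F G Q R' := by
  have : R' = R := funext fun l => funext fun x => e l x
  rw [this]; exact H

theorem Nul.sum {σ : Type*} (s : Finset σ) {R : σ → L → X → ℝ} (hQ : SosF F G Q)
    (H : ∀ i ∈ s, Nul F G Q (R i)) : Nul F G Q (fun l x => ∑ i ∈ s, R i l x) := by
  classical
  induction s using Finset.induction_on with
  | empty => exact fun δ hδ => (hQ.smul hδ.le).congr' fun l x => by simp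
  | insert i s hi ih =>
    refine ((H i (Finset.mem_insert_self i s)).add
      (ih fun j hj => H j (Finset.mem_insert_of_mem hj))).congr' fun l x => ?_
    rw [Finset.sum_insert hi]

/-- an infinitesimal one-sided multiple of a kernel with `±R ≤ C Q` -/
theorem Nul.of_left {g : L → ℝ} (hg : Tendsto g F (𝓝 0)) (hQ : SosF F G Q) {C : ℝ} (hC : 0 < C)
    (h1 : SosF F G (fun l x => C * Q l x - R l x)) (h2 : SosF F G (fun l x => C * Q l x + R l x)) :
    Nul F G Q (fun l x => g l * R l x) := by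
  intro δ hδ
  have hp : SosF F G (fun l (_ : X) => max (g l) 0) :=
    SosF.left (Eventually.of_forall fun l => le_max_right _ _)
  have hm : SosF F G (fun l (_ : X) => max (-g l) 0) :=
    SosF.left (Eventually.of_forall fun l => le_max_right _ _)
  have hev : ∀ᶠ l in F, |g l| < δ / C := by
    have h0 : Tendsto (fun l => |g l|) F (𝓝 0) := by simpa using hg.abs
    exact h0.eventually (gt_mem_nhds (by positivity))
  have h3 : SosF F G (fun l (_ : X) => δ - C * |g l|) :=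
    SosF.left (hev.mono fun l hl => by
      have := mul_lt_mul_of_pos_left hl hC
      rw [mul_div_cancel₀ _ hC.ne'] at this
      linarith)
  refine (((hp.mul h1).add (hm.mul h2)).add (h3.mul hQ)).congr' fun l x => ?_
  have e1 : max (g l) 0 + max (-g l) 0 = |g l| := by
    rcases le_total 0 (g l) with h | h
    · rw [max_eq_left h, max_eq_right (by linarith), abs_of_nonneg h, add_zero]
    · rw [max_eq_right h, max_eq_left (by linarith), abs_of_nonpos h, zero_add]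
  have e2 : max (g l) 0 - max (-g l) 0 = g l := by
    rcases le_total 0 (g l) with h | h
    · rw [max_eq_left h, max_eq_right (by linarith), sub_zero]
    · rw [max_eq_right h, max_eq_left (by linarith)]; ring
  linear_combination (-C * Q l x) * e1 + (R l x) * e2

end Nul

variable {ι : Type} [Fintype ι] [DecidableEq ι] {L X : Type} {F : Filter L} {V : Filter X}
  {S : L → X → ℝ} {K : Crd L X}

theorem mf_eq_pen (B D G1 : Matrix ι ι ℝ) (H : ℝ → Matrix ι ι ℝ) (x0 b s : ℝ) :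
    Mf B D G1 H x0 b s = pen B D G1 x0 b s (H s) := by
  simp only [Mf, Gs, pen, add_assoc]

/-- the pencil data of a representation -/
theorem penData (R : KRep ι F V S K) : PenData F V R.B R.D R.G1 (R.H 0) K.x0 K.b K.a K.y0 K.b' K.a'
    (fun l => R.H (K.a l)) (fun x => R.H (K.a' x)) R.ξ R.ξ0 where
  x0t := R.tx0
  bt := R.tb
  at_ := R.ta
  y0t := R.ty0
  b't := R.tb'
  a't := R.ta'
  HLt := fun i j => (R.nk i j).cont.tendsto.comp R.ta
  HXt := fun i j => (R.nk i j).cont.tendsto.comp R.ta'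
  psd := R.psdX.mono fun x hx => by rw [← mf_eq_pen]; exact hx
  ker := R.ker.mono fun l hl => by rw [← mf_eq_pen]; exact hl
  norm := R.nrm
  ξt := R.tξ
  N1 := fun i j => by
    obtain ⟨C, hC, h1, _, _⟩ := (R.nk i j).ker R.ta R.ta'
    refine ⟨(FR.right _).sub (FR.left _), C + 1, by positivity, ?_⟩
    have h2 : SosF F V (fun l x => (K.a' x - K.a l) ^ 2) :=
      SosF.sq ((FR.right K.a').sub (FR.left K.a))
    exact (SosF.add h1 h2).congr' fun l x => by ring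

/-- the form `⟨ξ, M(x) ξ⟩` -/
def TF (R : KRep ι F V S K) : L → X → ℝ := TT R.B R.D R.G1 K.y0 K.b' K.a' (fun x => R.H (K.a' x)) R.ξ

/-- the error `⟨ξ, (G(a') - G(a) - (a' - a) G'(a)) ξ⟩` -/
def EF (R : KRep ι F V S K) : L → X → ℝ := fun l x => R.ξ l ⬝ᵥ ((Gs R.D R.G1 R.H (K.a' x) -
  (Gs R.D R.G1 R.H (K.a l) + (K.a' x - K.a l) • DGs R.G1 R.H R.DH (K.a l))) *ᵥ R.ξ l)

theorem quad_sum (N : Matrix ι ι ℝ) (v : ι → ℝ) :
    v ⬝ᵥ (N *ᵥ v) = ∑ i, ∑ j, v i * v j * N i j := by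
  simp only [dotProduct, Matrix.mulVec, Finset.mul_sum]
  exact Finset.sum_congr rfl fun i _ => Finset.sum_congr rfl fun j _ => by ring

/-- `E ≤ δ α²` for every `δ`, when `γ = 0` -/
theorem nul_EF (R : KRep ι F V S K) (hγ : R.ξ0 ⬝ᵥ (R.H 0 *ᵥ R.ξ0) = 0) :
    Nul F V (fun l x => (K.a' x - K.a l) ^ 2) (EF R) := by
  have P := penData R
  have fα : FR (fun l x => K.a' x - K.a l) := (FR.right K.a').sub (FR.left K.a)
  have sα : SosF F V (fun l x => (K.a' x - K.a l) ^ 2) := SosF.sq fα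
  have dα := Dom.self (F := F) (G := V) fα
  -- three parts
  have h1 : Nul F V (fun l x => (K.a' x - K.a l) ^ 2)
      (fun l x => (K.a' x - K.a l) ^ 2 * (R.ξ l ⬝ᵥ (R.H (K.a l) *ᵥ R.ξ l))) := by
    intro δ hδ
    have ht : Tendsto (fun l => R.ξ l ⬝ᵥ (R.H (K.a l) *ᵥ R.ξ l)) F (𝓝 0) := by
      rw [← hγ]
      simp only [dotProduct, Matrix.mulVec]
      exact tendsto_finsetSum _ fun i _ => (P.ξt i).mul (tendsto_finsetSum _ fun j _ =>
        (P.HLt i j).mul (P.ξt j))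
    have hs : SosF F V (fun l (_ : X) => δ - R.ξ l ⬝ᵥ (R.H (K.a l) *ᵥ R.ξ l)) :=
      SosF.left ((ht.eventually (gt_mem_nhds hδ)).mono fun l hl => by linarith)
    exact (hs.mul sα).congr' fun l x => by ring
  have h2 : Nul F V (fun l x => (K.a' x - K.a l) ^ 2)
      (fun l x => (K.a' x + K.a l) * (R.ξ l ⬝ᵥ ((R.H (K.a' x) - R.H (K.a l)) *ᵥ R.ξ l)) *
        (K.a' x - K.a l)) := by
    have hd : H201.Dom F V (fun l x => R.ξ l ⬝ᵥ ((R.H (K.a' x) - R.H (K.a l)) *ᵥ R.ξ l))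
        (fun l x => (K.a' x - K.a l) ^ 2) := by
      refine (H201.Dom.sum Finset.univ sα (r := fun i l x => ∑ j, R.ξ l i * R.ξ l j *
        (R.H (K.a' x) i j - R.H (K.a l) i j)) fun i _ => H201.Dom.sum Finset.univ sα
        (r := fun j l x => R.ξ l i * R.ξ l j *
        (R.H (K.a' x) i j - R.H (K.a l) i j)) fun j _ => ?_).congr' fun l x => ?_
      · exact (P.N1 i j).germ (GermFR.left (G := V) ((P.ξt i).mul (P.ξt j)))
      · rw [quad_sum]; rfl
    have hg : GermFR F V (fun l x => K.a' x + K.a l) 0 :=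
      ((GermFR.right P.a't).add (GermFR.left P.at_)).congr (fun _ _ => rfl) (by simp)
    have hs := hd.germ_small hg
    exact fun δ hδ => (hs.mul_le dα δ hδ).1
  have h3 : Nul F V (fun l x => (K.a' x - K.a l) ^ 2)
      (fun l x => K.a l ^ 2 * (R.ξ l ⬝ᵥ ((R.H (K.a' x) - R.H (K.a l) -
        (K.a' x - K.a l) • R.DH (K.a l)) *ᵥ R.ξ l))) := by
    refine (Nul.sum Finset.univ sα (R := fun i l x => ∑ j, K.a l ^ 2 * (R.ξ l i * R.ξ l j) *
      (R.H (K.a' x) i j - R.H (K.a l) i j - (K.a' x - K.a l) * R.DH (K.a l) i j)) fun i _ =>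
      Nul.sum Finset.univ sα (R := fun j l x => K.a l ^ 2 * (R.ξ l i * R.ξ l j) *
      (R.H (K.a' x) i j - R.H (K.a l) i j - (K.a' x - K.a l) * R.DH (K.a l) i j)) fun j _ =>
      ?_).congr' fun l x => ?_
    · obtain ⟨C, hC, _, h4, h5⟩ := (R.nk i j).ker R.ta R.ta'
      refine Nul.of_left (C := C + 1) (R := fun l x => R.H (K.a' x) i j - R.H (K.a l) i j -
        (K.a' x - K.a l) * R.DH (K.a l) i j) ?_ sα (by positivity) ?_ ?_
      · have := (P.at_.pow 2).mul ((P.ξt i).mul (P.ξt j))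
        simpa using this
      · exact (SosF.add h4 sα).congr' fun l x => by ring
      · exact (SosF.add h5 sα).congr' fun l x => by ring
    · rw [quad_sum, Finset.mul_sum]
      refine Finset.sum_congr rfl fun i _ => ?_
      rw [Finset.mul_sum]
      refine Finset.sum_congr rfl fun j _ => ?_
      simp only [Matrix.sub_apply, Matrix.smul_apply, smul_eq_mul]
      ring
  refine ((h1.add h2).add h3).congr' fun l x => ?_
  simp only [EF, Gs, DGs, Matrix.sub_mulVec, Matrix.add_mulVec, Matrix.smul_mulVec,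
    dotProduct_sub, dotProduct_add, dotProduct_smul, smul_eq_mul]
  ring

/-- `T ≤ 2 S + δ α²` -/
theorem flat (R : KRep ι F V S K) (hγ : R.ξ0 ⬝ᵥ (R.H 0 *ᵥ R.ξ0) = 0) :
    ∃ c : ℝ, 0 < c ∧ ∀ δ : ℝ, 0 < δ →
      SosF F V (fun l x => S l x + δ * (K.a' x - K.a l) ^ 2 - c * TF R l x) := by
  have P := penData R
  refine ⟨1 / 2, by norm_num, fun δ hδ => ?_⟩
  have sα : SosF F V (fun l x => (K.a' x - K.a l) ^ 2) :=
    SosF.sq ((FR.right K.a').sub (FR.left K.a))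
  have hκ : Tendsto (fun l => R.ξ l ⬝ᵥ R.ξ l) F (𝓝 1) := by
    rw [← R.nrm0]
    simp only [dotProduct]
    exact tendsto_finsetSum _ fun i _ => (P.ξt i).mul (P.ξt i)
  have hκi : Tendsto (fun l => (R.ξ l ⬝ᵥ R.ξ l)⁻¹) F (𝓝 1) := by
    simpa using hκ.inv₀ (by norm_num)
  have hu : GermFR F V (fun l x => (R.ξ l ⬝ᵥ R.ξ l)⁻¹ * K.c' x) 1 :=
    ((GermFR.left hκi).mul (GermFR.right R.tc')).congr (fun _ _ => rfl) (by simp)
  have h1 : SosF F V (fun l x => (R.ξ l ⬝ᵥ R.ξ l)⁻¹ * K.c' x - 1 / 2) :=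
    GermFR.sosF (hu.sub (GermFR.const (1 / 2))) (by norm_num)
  have h2 : SosF F V (fun l x => δ - δ / 2 * ((R.ξ l ⬝ᵥ R.ξ l)⁻¹ * K.c' x)) :=
    GermFR.sosF ((GermFR.const δ).sub ((GermFR.const (δ / 2)).mul hu)) (by linarith)
  have h3 : SosF F V (fun l x => (R.ξ l ⬝ᵥ R.ξ l)⁻¹ * K.c' x) := GermFR.sosF hu (by norm_num)
  have h4 := ((h1.mul P.sos).add (h2.mul sα)).add (h3.mul (nul_EF R hγ (δ / 2) (by positivity)))
  refine h4.congr ?_
  obtain ⟨A, hA, A', hA', h⟩ := R.S_eq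
  have hne : ∀ᶠ l in F, R.ξ l ⬝ᵥ R.ξ l ≠ 0 := hκ.eventually_ne (by norm_num)
  refine ⟨A ∩ {l | R.ξ l ⬝ᵥ R.ξ l ≠ 0}, inter_mem hA hne, A', hA', fun l hl x hx => ?_⟩
  have h5 := h l hl.1 x hx
  have h6 : R.ξ l ⬝ᵥ R.ξ l ≠ 0 := hl.2
  beta_reduce at h5 ⊢
  have e1 : S l x = (R.ξ l ⬝ᵥ R.ξ l)⁻¹ * K.c' x * (R.ξ l ⬝ᵥ
      ((K.y0 x • (1 : Matrix ι ι ℝ) + K.b' x • R.B + (Gs R.D R.G1 R.H (K.a l) +
      (K.a' x - K.a l) • DGs R.G1 R.H R.DH (K.a l))) *ᵥ R.ξ l)) := by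
    rw [mul_assoc, ← h5, ← mul_assoc, inv_mul_cancel₀ h6, one_mul]
  have e2 : R.ξ l ⬝ᵥ ((K.y0 x • (1 : Matrix ι ι ℝ) + K.b' x • R.B + (Gs R.D R.G1 R.H (K.a l) +
      (K.a' x - K.a l) • DGs R.G1 R.H R.DH (K.a l))) *ᵥ R.ξ l) = TF R l x - EF R l x := by
    simp only [TF, TT, EF, ← mf_eq_pen, Mf, Matrix.sub_mulVec, Matrix.add_mulVec,
      dotProduct_sub, dotProduct_add]
    ring
  rw [e2] at e1
  rw [e1]
  simp only [TF]
  ring

/-- `α² ≤ C ⟨ξ, M(x) ξ⟩` implies that `S` is a sum of squares (when `γ = 0`) -/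
theorem goal (R : KRep ι F V S K) (hγ : R.ξ0 ⬝ᵥ (R.H 0 *ᵥ R.ξ0) = 0)
    (hD : ∃ C : ℝ, 0 < C ∧ SosF F V (fun l x => C * TF R l x - (K.a' x - K.a l) ^ 2)) :
    SosF F V S := by
  obtain ⟨C, hC, hD⟩ := hD
  obtain ⟨c, hc, h⟩ := flat R hγ
  have h1 := h (c / (2 * C)) (by positivity)
  have h2 := hD.smul (c := c / (2 * C)) (by positivity)
  have h3 := ((penData R).sos).smul (c := c / 2) (by positivity)
  refine ((h1.add h2).add h3).congr' fun l x => ?_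
  have e : c / (2 * C) * C = c / 2 := by field_simp
  simp only [TF]
  linear_combination (-(TT R.B R.D R.G1 K.y0 K.b' K.a' (fun x => R.H (K.a' x)) R.ξ l x)) * e

theorem chg_aux {a b b' k μ : ℝ} (h1 : 1 + k * b ≠ 0) (h2 : 1 + k * b' ≠ 0) (hμ : μ ≠ 0) :
    a * (b' - b) = μ⁻¹ * ((1 + k * b) * (1 + k * b)) * (1 + k * b') *
      (a / (1 + k * b) * (μ * b' / (1 + k * b') - μ * b / (1 + k * b))) := by
  have e1 : (1 + k * b') * (μ * b' / (1 + k * b')) = μ * b' := mul_div_cancel₀ _ h2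
  have e2 : (1 + k * b) * (μ * b / (1 + k * b)) = μ * b := mul_div_cancel₀ _ h1
  have e3 : (1 + k * b) * (a / (1 + k * b)) = a := mul_div_cancel₀ _ h1
  obtain ⟨A, hA⟩ : ∃ A, A = 1 + k * b := ⟨_, rfl⟩
  obtain ⟨A', hA'⟩ : ∃ A', A' = 1 + k * b' := ⟨_, rfl⟩
  obtain ⟨u, hu⟩ : ∃ u, u = μ * b' / (1 + k * b') := ⟨_, rfl⟩
  obtain ⟨v, hv⟩ : ∃ v, v = μ * b / (1 + k * b) := ⟨_, rfl⟩
  obtain ⟨w, hw⟩ : ∃ w, w = a / (1 + k * b) := ⟨_, rfl⟩
  have e4 : μ⁻¹ * μ = 1 := inv_mul_cancel₀ hμ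
  rw [← hu] at e1
  rw [← hv] at e2
  rw [← hw] at e3
  rw [← hu, ← hv, ← hw]
  have : μ⁻¹ * ((1 + k * b) * (1 + k * b)) * (1 + k * b') * (w * (u - v)) =
      μ⁻¹ * ((1 + k * b) * w) * ((1 + k * b) * ((1 + k * b') * u) -
        (1 + k * b') * ((1 + k * b) * v)) := by ring
  rw [this, e1, e2, e3]
  linear_combination (-(a * (b' - b))) * e4

/-- the relation between the coordinates of the frames `z, e, f, w` and `z, e, f_c, w`, where
`f = k z + μ f_c` -/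
structure Chg {L X : Type} (F : Filter L) (V : Filter X) (k μ : ℝ) (K Kc : Crd L X) : Prop where
  ea : ∀ᶠ l in F, Kc.a l = K.a l / (1 + k * K.b l)
  eb : ∀ᶠ l in F, Kc.b l = μ * K.b l / (1 + k * K.b l)
  ea' : ∀ᶠ x in V, Kc.a' x = K.a' x / (1 + k * K.b' x)
  eb' : ∀ᶠ x in V, Kc.b' x = μ * K.b' x / (1 + k * K.b' x)

/-- **Case 5c(ii).** Two representations `R` (base `f`) and `R_c` (base `f_c`, `f = k z + μ f_c`)
of the same slack kernel, both with `γ = 0`. If `B ξ / a → -k G₁ ξ₀ ≠ 0` in the first and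
`B ξ / a → β₀ ≠ 0` in the second, then `S` is a sum of squares. -/
theorem step_ii [F.NeBot] {κ : Type} [Fintype κ] [DecidableEq κ] {Kc : Crd L X}
    (R : KRep ι F V S K) (Rc : KRep κ F V S Kc)
    (hγ : R.ξ0 ⬝ᵥ (R.H 0 *ᵥ R.ξ0) = 0) (hγc : Rc.ξ0 ⬝ᵥ (Rc.H 0 *ᵥ Rc.ξ0) = 0)
    {k μ : ℝ} (hμ : μ ≠ 0) (hc : Chg F V k μ K Kc)
    (ha : ∀ᶠ l in F, K.a l ≠ 0) (hg : R.G1 *ᵥ R.ξ0 ≠ 0)
    (h1 : ∀ i, Tendsto (fun l => (R.B *ᵥ R.ξ l) i / K.a l) F (𝓝 (-k * (R.G1 *ᵥ R.ξ0) i)))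
    (hBc : Rc.B *ᵥ Rc.ξ0 = 0) {β0 : κ → ℝ} (hβ0 : β0 ≠ 0)
    (h2 : ∀ i, Tendsto (fun l => (Rc.B *ᵥ Rc.ξ l) i / Kc.a l) F (𝓝 (β0 i))) :
    SosF F V S := by
  have P := penData R
  have Pc := penData Rc
  -- units
  have t1 : Tendsto (fun l => 1 + k * K.b l) F (𝓝 1) := by
    simpa using (P.bt.const_mul k).const_add 1
  have t2 : Tendsto (fun x => 1 + k * K.b' x) V (𝓝 1) := by
    simpa using (P.b't.const_mul k).const_add 1
  have n1 : ∀ᶠ l in F, 1 + k * K.b l ≠ 0 := t1.eventually_ne (by norm_num)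
  have n2 : ∀ᶠ x in V, 1 + k * K.b' x ≠ 0 := t2.eventually_ne (by norm_num)
  have ha' : ∀ᶠ l in F, Kc.a l ≠ 0 := by
    filter_upwards [hc.ea, ha, n1] with l h3 h4 h5
    rw [h3]; exact div_ne_zero h4 h5
  -- rep `f`
  have hI := P.lemI (e := K.a) (β := fun l i => (R.B *ᵥ R.ξ l) i / K.a l) (k := k)
    (ha.mono fun l hl => by
      funext i
      simp only [Pi.smul_apply, smul_eq_mul]
      field_simp)
    (fun i => by simpa using h1 i) R.G00 hg
  -- rep `c₁`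
  have h0 : Rc.ξ0 ⬝ᵥ β0 = 0 := by
    have h3 : Tendsto (fun l => Rc.ξ0 ⬝ᵥ (fun i => (Rc.B *ᵥ Rc.ξ l) i / Kc.a l)) F
        (𝓝 (Rc.ξ0 ⬝ᵥ β0)) := tendsto_dot h2 _
    have h4 : ∀ l, Rc.ξ0 ⬝ᵥ (fun i => (Rc.B *ᵥ Rc.ξ l) i / Kc.a l) = 0 := by
      intro l
      have h5 : Rc.ξ0 ⬝ᵥ (Rc.B *ᵥ Rc.ξ l) = 0 := by
        rw [H387.herm_swap Rc.symB, hBc, dotProduct_zero]
      have h6 : (fun i => (Rc.B *ᵥ Rc.ξ l) i / Kc.a l) = (Kc.a l)⁻¹ • (Rc.B *ᵥ Rc.ξ l) := by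
        funext i
        simp only [Pi.smul_apply, smul_eq_mul]
        rw [div_eq_inv_mul]
      rw [h6, dotProduct_smul, h5, smul_zero]
    simp only [h4] at h3
    exact (tendsto_nhds_unique h3 tendsto_const_nhds)
  have hII := Pc.lemII (e := Kc.a) (β := fun l i => (Rc.B *ᵥ Rc.ξ l) i / Kc.a l)
    (ha'.mono fun l hl => by
      funext i
      simp only [Pi.smul_apply, smul_eq_mul]
      field_simp) h2 h0 hβ0
  -- germs
  have g1 : Tendsto (fun l => (1 + k * K.b l)⁻¹) F (𝓝 1) := by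
    simpa using t1.inv₀ (by norm_num)
  have g2 : Tendsto (fun x => (1 + k * K.b' x)⁻¹) V (𝓝 1) := by
    simpa using t2.inv₀ (by norm_num)
  have hu : GermFR F V (fun l x => (1 + k * K.b l)⁻¹ * (1 + k * K.b' x)⁻¹) 1 :=
    ((GermFR.left g1).mul (GermFR.right g2)).congr (fun _ _ => rfl) (by simp)
  have hj : GermFR F V (fun l x => k * K.b l * ((1 + k * K.b l)⁻¹ * (1 + k * K.b' x)⁻¹)) 0 :=
    ((GermFR.left (P.bt.const_mul k)).mul hu).congr (fun _ _ => rfl) (by simp)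
  have hv : GermFR F V (fun l x => μ⁻¹ * ((1 + k * K.b l) * (1 + k * K.b l)) *
      (1 + k * K.b' x)) μ⁻¹ :=
    ((GermFR.left ((t1.mul t1).const_mul μ⁻¹)).mul (GermFR.right t2)).congr
      (fun _ _ => rfl) (by simp)
  refine step_abs (ζ := fun l x => K.a l * (K.b' x - K.b l)) (α := fun l x => K.a' x - K.a l)
    (ζc := fun l x => Kc.a l * (Kc.b' x - Kc.b l)) (αc := fun l x => Kc.a' x - Kc.a l)
    (k := k) ?_ ((FR.right _).sub (FR.left _)) P.sos (flat R hγ) hI (flat Rc hγc) hII hu hj hv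
    ((FR.right _).sub (FR.left _)) ?_ ?_
  · exact (FR.left _).mul ((FR.right _).sub (FR.left _))
  · refine EqF.of_eventually (fun l => Kc.a l = K.a l / (1 + k * K.b l) ∧ 1 + k * K.b l ≠ 0)
      (fun x => Kc.a' x = K.a' x / (1 + k * K.b' x) ∧ 1 + k * K.b' x ≠ 0) (hc.ea.and n1)
      (hc.ea'.and n2) ?_
    rintro l x ⟨e1, e2⟩ ⟨e3, e4⟩
    beta_reduce
    rw [e1, e3]
    field_simp
    ring
  · refine EqF.of_eventually (fun l => (Kc.a l = K.a l / (1 + k * K.b l) ∧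
      Kc.b l = μ * K.b l / (1 + k * K.b l)) ∧ 1 + k * K.b l ≠ 0)
      (fun x => Kc.b' x = μ * K.b' x / (1 + k * K.b' x) ∧ 1 + k * K.b' x ≠ 0)
      ((hc.ea.and hc.eb).and n1) (hc.eb'.and n2) ?_
    rintro l x ⟨⟨e1, e2⟩, e3⟩ ⟨e4, e5⟩
    beta_reduce
    rw [e1, e2, e4]
    exact chg_aux e3 e5 hμ

end Vale.Agent.P256.H465
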