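import Vale.Agent.P256.H201.Dom
import Vale.Agent.P256.H387.Herm

/-! Case 5c(ii) of the local theorem in dimension four: the scale of `B ξ` is comparable with the
coordinate `a`. Two pencils through two points of the flat line are combined. -/

set_option linter.all false

namespace Vale.Agent.P256.H465

open Filter Topology Matrix Vale.Agent.P256 Vale.Agent.P256.H326 Vale.Agent.P256.H201

variable {L X : Type*} {F : Filter L} {G : Filter X}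

/-! ### the module of kernels `r` with `r² ≤ C Φ + δ Q` for all `δ` -/

/-- `r² ≤ C Φ + δ Q` for every `δ > 0` (with `C` depending on `δ`) -/
structure Zr (F : Filter L) (G : Filter X) (Φ Q r : L → X → ℝ) : Prop where
  fr : FR r
  le : ∀ δ : ℝ, 0 < δ → ∃ C : ℝ, 0 < C ∧ SosF F G (fun l x => C * Φ l x + δ * Q l x - r l x ^ 2)

variable {Φ Φ' Q Q' r s : L → X → ℝ}

theorem Zr.of_dom (hQ : SosF F G Q) (H : Dom F G r Φ) : Zr F G Φ Q r := by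
  obtain ⟨hf, C, hC, hs⟩ := H
  exact ⟨hf, fun δ hδ => ⟨C, hC, (hs.add (hQ.smul hδ.le)).congr' fun l x => by ring⟩⟩

theorem Zr.of_sml (hΦ : SosF F G Φ) (H : Sml F G r Q) : Zr F G Φ Q r :=
  ⟨H.fr, fun δ hδ => ⟨1, one_pos, (hΦ.add (H.le δ hδ)).congr' fun l x => by ring⟩⟩

theorem Zr.add (H : Zr F G Φ Q r) (H' : Zr F G Φ Q s) :
    Zr F G Φ Q (fun l x => r l x + s l x) := by
  refine ⟨H.fr.add H'.fr, fun δ hδ => ?_⟩
  obtain ⟨C, hC, h⟩ := H.le (δ / 4) (by positivity)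
  obtain ⟨C', hC', h'⟩ := H'.le (δ / 4) (by positivity)
  have h1 : SosF F G (fun l x => (r l x - s l x) ^ 2) := SosF.sq (H.fr.sub H'.fr)
  refine ⟨2 * (C + C'), by positivity, ?_⟩
  exact (((h.smul (c := 2) (by norm_num)).add (h'.smul (c := 2) (by norm_num))).add h1).congr'
    fun l x => by ring

theorem Zr.germ {h : L → X → ℝ} {c : ℝ} (H : Zr F G Φ Q r) (hh : GermFR F G h c) :
    Zr F G Φ Q (fun l x => h l x * r l x) := by
  refine ⟨(germ_fr hh).mul H.fr, fun δ hδ => ?_⟩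
  have hη : 0 < δ / (c ^ 2 + 1) := by positivity
  obtain ⟨C, hC, h0⟩ := H.le _ hη
  have h1 := (germ_bdd hh).mul (SosF.sq (F := F) (G := G) H.fr)
  have h2 := h0.smul (c := c ^ 2 + 1) (by positivity)
  refine ⟨(c ^ 2 + 1) * C, by positivity, (h1.add h2).congr' fun l x => ?_⟩
  have : (c ^ 2 + 1) * (δ / (c ^ 2 + 1)) = δ := mul_div_cancel₀ _ (by positivity)
  have e : (c ^ 2 + 1) * (C * Φ l x + δ / (c ^ 2 + 1) * Q l x - r l x ^ 2) =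
      (c ^ 2 + 1) * C * Φ l x + δ * Q l x - (c ^ 2 + 1) * r l x ^ 2 := by
    rw [mul_sub, mul_add, ← mul_assoc, ← mul_assoc, this]
  rw [e]; ring

theorem Zr.congr' (H : Zr F G Φ Q r) (e : ∀ l x, s l x = r l x) : Zr F G Φ Q s := by
  have : s = r := funext fun l => funext fun x => e l x
  rw [this]; exact H

theorem Zr.congr (H : Zr F G Φ Q r) (hf : FR s) (e : EqF F G s r) : Zr F G Φ Q s := by
  refine ⟨hf, fun δ hδ => ?_⟩
  obtain ⟨C, hC, h⟩ := H.le δ hδ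
  exact ⟨C, hC, h.congr (EqF.comb2 (fun a b => a - b ^ 2)
    (EqF.refl (fun l x => C * Φ l x + δ * Q l x)) e)⟩

theorem Zr.smul (c : ℝ) (H : Zr F G Φ Q r) : Zr F G Φ Q (fun l x => c * r l x) :=
  H.germ (GermFR.const c)

theorem Zr.neg (H : Zr F G Φ Q r) : Zr F G Φ Q (fun l x => - r l x) :=
  (H.smul (-1)).congr' fun l x => by ring

theorem Zr.sub (H : Zr F G Φ Q r) (H' : Zr F G Φ Q s) :
    Zr F G Φ Q (fun l x => r l x - s l x) := (H.add H'.neg).congr' fun l x => by ring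

/-- enlarging `Q` -/
theorem Zr.monoQ (H : Zr F G Φ Q r) {K : ℝ} (hK : 0 < K)
    (h : SosF F G (fun l x => K * Q' l x - Q l x)) : Zr F G Φ Q' r := by
  refine ⟨H.fr, fun δ hδ => ?_⟩
  obtain ⟨C, hC, h1⟩ := H.le (δ / K) (by positivity)
  refine ⟨C, hC, (h1.add (h.smul (c := δ / K) (by positivity))).congr' fun l x => ?_⟩
  have : δ / K * K = δ := div_mul_cancel₀ _ hK.ne'
  have e : δ / K * (K * Q' l x - Q l x) = δ * Q' l x - δ / K * Q l x := by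
    rw [mul_sub, ← mul_assoc, this]
  rw [e]; ring

/-- replacing `Φ` by `Φ'` with `Φ ≤ k(l) Φ' + δ Q` -/
theorem Zr.changePhi (H : Zr F G Φ Q r) {k : L → ℝ} {k0 : ℝ} (hk : Tendsto k F (𝓝 k0))
    (hk0 : 0 < k0) (hQ : SosF F G Q)
    (h : ∀ δ : ℝ, 0 < δ → SosF F G (fun l x => k l * Φ' l x + δ * Q l x - Φ l x)) :
    Zr F G Φ' Q r := by
  refine ⟨H.fr, fun δ hδ => ?_⟩
  obtain ⟨η, hη⟩ : ∃ η : ℝ, η = δ / 8 := ⟨_, rfl⟩
  have hηpos : 0 < η := by rw [hη]; positivity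
  obtain ⟨C, hC, h1⟩ := H.le η hηpos
  have h2 := h (η / C) (by positivity)
  have hev : ∀ᶠ l in F, k0 / 2 < k l ∧ k l < 2 * k0 :=
    (hk.eventually (lt_mem_nhds (by linarith))).and (hk.eventually (gt_mem_nhds (by linarith)))
  have h3 : SosF F G (fun l x => C * k l * Φ' l x + 2 * η * Q l x - r l x ^ 2) := by
    refine (h1.add (h2.smul hC.le)).congr' fun l x => ?_
    have : C * (η / C) = η := mul_div_cancel₀ _ hC.ne'
    have e : C * (k l * Φ' l x + η / C * Q l x - Φ l x) =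
        C * k l * Φ' l x + η * Q l x - C * Φ l x := by
      rw [mul_sub, mul_add, ← mul_assoc, ← mul_assoc, this]
    rw [e]; ring
  have h4 : SosF F G (fun (l : L) (_ : X) => (2 * k0) / k l) :=
    SosF.left (hev.mono fun l hl => by
      have h0 := hl.1
      have : 0 < k l := by linarith
      positivity)
  have h6 : SosF F G (fun (l : L) (_ : X) => (2 * k0) / k l - 1) :=
    SosF.left (hev.mono fun l hl => by
      have h7 : 0 < k l := by linarith [hl.1]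
      rw [sub_nonneg, le_div_iff₀ h7]
      linarith [hl.2])
  have h8 : SosF F G (fun (l : L) (_ : X) => 4 - (2 * k0) / k l) :=
    SosF.left (hev.mono fun l hl => by
      have h7 : 0 < k l := by linarith [hl.1]
      rw [sub_nonneg, div_le_iff₀ h7]
      linarith [hl.1])
  have h5 := h4.mul h3
  have h7 := h6.mul (SosF.sq (F := F) (G := G) H.fr)
  have h9 := (h8.mul hQ).smul (c := 2 * η) (by positivity)
  refine ⟨2 * k0 * C, by positivity, ?_⟩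
  refine SosF.congr ((h5.add h7).add h9) ?_
  refine EqF.of_eventually (fun l => k0 / 2 < k l ∧ k l < 2 * k0) (fun _ => True) hev (by simp) ?_
  intro l x hl _
  have hkl : k l ≠ 0 := by
    have h0 := hl.1
    have : 0 < k l := by linarith
    exact this.ne'
  have e1 : δ = 8 * η := by rw [hη]; ring
  have e2 : 2 * k0 / k l * k l = 2 * k0 := div_mul_cancel₀ _ hkl
  rw [e1]
  obtain ⟨m, hm⟩ : ∃ m : ℝ, m = 2 * k0 / k l := ⟨_, rfl⟩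
  rw [← hm] at e2 ⊢
  linear_combination (-C * Φ' l x) * e2

/-- absorption: if every generator is in the module then `Q ≤ C Φ` -/
theorem Zr.absorb2 {r s : L → X → ℝ} (h1 : Zr F G Φ (fun l x => r l x ^ 2 + s l x ^ 2) r)
    (h2 : Zr F G Φ (fun l x => r l x ^ 2 + s l x ^ 2) s) :
    ∃ C : ℝ, 0 < C ∧ SosF F G (fun l x => C * Φ l x - (r l x ^ 2 + s l x ^ 2)) := by
  obtain ⟨C, hC, a⟩ := h1.le (1 / 4) (by norm_num)
  obtain ⟨C', hC', a'⟩ := h2.le (1 / 4) (by norm_num)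
  exact ⟨2 * (C + C'), by positivity, ((a.add a').smul (c := 2) (by norm_num)).congr'
    fun l x => by ring⟩

theorem sosF_of_le {Q : L → X → ℝ} (hQ : SosF F G Q)
    (h : ∃ C : ℝ, 0 < C ∧ SosF F G (fun l x => C * Φ l x - Q l x)) : SosF F G Φ := by
  obtain ⟨C, hC, h⟩ := h
  refine ((h.add hQ).smul (c := C⁻¹) (by positivity)).congr' fun l x => ?_
  field_simp
  ring

/-! ### pencils -/

variable {ι : Type*} [Fintype ι] [DecidableEq ι]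

/-- the pencil `x₀ + b B + D + a G₁ + a² H` -/
def pen (B D G1 : Matrix ι ι ℝ) (x0 b a : ℝ) (H : Matrix ι ι ℝ) : Matrix ι ι ℝ :=
  x0 • (1 : Matrix ι ι ℝ) + b • B + D + a • G1 + a ^ 2 • H

theorem pen_sub (B D G1 : Matrix ι ι ℝ) (x0 b a y0 b' a' : ℝ) (H H' : Matrix ι ι ℝ)
    (ξ v : ι → ℝ) (h : pen B D G1 x0 b a H *ᵥ ξ = 0) :
    v ⬝ᵥ (pen B D G1 y0 b' a' H' *ᵥ ξ) = (y0 - x0) * (v ⬝ᵥ ξ) + (b' - b) * (v ⬝ᵥ (B *ᵥ ξ)) +
      (a' - a) * (v ⬝ᵥ (G1 *ᵥ ξ)) + (a' - a) * ((a' + a) * (v ⬝ᵥ (H *ᵥ ξ))) +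
      a' ^ 2 * (v ⬝ᵥ ((H' - H) *ᵥ ξ)) := by
  have h1 : v ⬝ᵥ (pen B D G1 x0 b a H *ᵥ ξ) = 0 := by rw [h, dotProduct_zero]
  have e : ∀ (x0 b a : ℝ) (H : Matrix ι ι ℝ), v ⬝ᵥ (pen B D G1 x0 b a H *ᵥ ξ) =
      x0 * (v ⬝ᵥ ξ) + b * (v ⬝ᵥ (B *ᵥ ξ)) + v ⬝ᵥ (D *ᵥ ξ) + a * (v ⬝ᵥ (G1 *ᵥ ξ)) +
      a ^ 2 * (v ⬝ᵥ (H *ᵥ ξ)) := by
    intro x0 b a H
    simp only [pen, Matrix.add_mulVec, Matrix.smul_mulVec, Matrix.one_mulVec, dotProduct_add,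
      dotProduct_smul, smul_eq_mul]
  rw [e] at h1 ⊢
  rw [Matrix.sub_mulVec, dotProduct_sub]
  linear_combination h1

/-- one-sided and two-sided data of a real pencil, along the filters `F` (side of the kernel
vector) and `G` -/
structure PenData (F : Filter L) (G : Filter X) (B D G1 G2 : Matrix ι ι ℝ)
    (x0 b a : L → ℝ) (y0 b' a' : X → ℝ) (HL : L → Matrix ι ι ℝ) (HX : X → Matrix ι ι ℝ)
    (ξ : L → ι → ℝ) (ξ0 : ι → ℝ) : Prop where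
  x0t : Tendsto x0 F (𝓝 0)
  bt : Tendsto b F (𝓝 0)
  at_ : Tendsto a F (𝓝 0)
  y0t : Tendsto y0 G (𝓝 0)
  b't : Tendsto b' G (𝓝 0)
  a't : Tendsto a' G (𝓝 0)
  HLt : ∀ i j, Tendsto (fun l => HL l i j) F (𝓝 (G2 i j))
  HXt : ∀ i j, Tendsto (fun x => HX x i j) G (𝓝 (G2 i j))
  psd : ∀ᶠ x in G, (pen B D G1 (y0 x) (b' x) (a' x) (HX x)).PosSemidef
  ker : ∀ᶠ l in F, pen B D G1 (x0 l) (b l) (a l) (HL l) *ᵥ ξ l = 0
  norm : ∀ᶠ l in F, ξ0 ⬝ᵥ ξ l = 1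
  ξt : ∀ i, Tendsto (fun l => ξ l i) F (𝓝 (ξ0 i))
  N1 : ∀ i j, H201.Dom F G (fun l x => HX x i j - HL l i j) (fun l x => (a' x - a l) ^ 2)

section Data

variable {B D G1 G2 : Matrix ι ι ℝ} {x0 b a : L → ℝ} {y0 b' a' : X → ℝ}
  {HL : L → Matrix ι ι ℝ} {HX : X → Matrix ι ι ℝ} {ξ : L → ι → ℝ} {ξ0 : ι → ℝ}

theorem tendsto_dot_mul {N : Matrix ι ι ℝ} (hξ : ∀ i, Tendsto (fun l => ξ l i) F (𝓝 (ξ0 i)))
    (v : ι → ℝ) : Tendsto (fun l => v ⬝ᵥ (N *ᵥ ξ l)) F (𝓝 (v ⬝ᵥ (N *ᵥ ξ0))) := by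
  simp only [dotProduct, Matrix.mulVec]
  exact tendsto_finsetSum _ fun i _ => (tendsto_finsetSum _ fun j _ =>
    (hξ j).const_mul _).const_mul _

theorem tendsto_dot {ξ : L → ι → ℝ} {ξ0 : ι → ℝ} (hξ : ∀ i, Tendsto (fun l => ξ l i) F (𝓝 (ξ0 i)))
    (v : ι → ℝ) : Tendsto (fun l => v ⬝ᵥ ξ l) F (𝓝 (v ⬝ᵥ ξ0)) := by
  simp only [dotProduct]
  exact tendsto_finsetSum _ fun i _ => (hξ i).const_mul _

/-- the form of the pencil -/
def TT (B D G1 : Matrix ι ι ℝ) (y0 b' a' : X → ℝ) (HX : X → Matrix ι ι ℝ) (ξ : L → ι → ℝ) :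
    L → X → ℝ := fun l x => ξ l ⬝ᵥ (pen B D G1 (y0 x) (b' x) (a' x) (HX x) *ᵥ ξ l)

theorem PenData.sos (P : PenData F G B D G1 G2 x0 b a y0 b' a' HL HX ξ ξ0) :
    SosF F G (TT B D G1 y0 b' a' HX ξ) :=
  (H387.sosF_psd (F := F) P.psd ξ).congr' fun l x => H387.dot_mulVec_eq _ _ _

/-- the rows of `M(x) ξ(l)` -/
def UU (B D G1 : Matrix ι ι ℝ) (y0 b' a' : X → ℝ) (HX : X → Matrix ι ι ℝ) (ξ : L → ι → ℝ)
    (v : ι → ℝ) : L → X → ℝ := fun l x => v ⬝ᵥ (pen B D G1 (y0 x) (b' x) (a' x) (HX x) *ᵥ ξ l)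

theorem fr_form (v : ι → ℝ) (N : X → Matrix ι ι ℝ) (ξ : L → ι → ℝ) :
    FR (fun l x => v ⬝ᵥ (N x *ᵥ ξ l)) := by
  show FR (fun l x => ∑ i, v i * ∑ j, N x i j * ξ l j)
  refine FR.sum _ fun i _ => ((FR.const (v i)).mul (FR.sum Finset.univ fun j _ =>
    (FR.right (fun x => N x i j)).mul (FR.left (fun l => ξ l j)))).congr fun l x => rfl

theorem PenData.tendsto_form (P : PenData F G B D G1 G2 x0 b a y0 b' a' HL HX ξ ξ0)
    (v : ι → ℝ) : Tendsto (fun x => v ⬝ᵥ (pen B D G1 (y0 x) (b' x) (a' x) (HX x) *ᵥ v)) G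
      (𝓝 (v ⬝ᵥ (D *ᵥ v))) := by
  have e : ∀ x, v ⬝ᵥ (pen B D G1 (y0 x) (b' x) (a' x) (HX x) *ᵥ v) =
      y0 x * (v ⬝ᵥ v) + b' x * (v ⬝ᵥ (B *ᵥ v)) + v ⬝ᵥ (D *ᵥ v) + a' x * (v ⬝ᵥ (G1 *ᵥ v)) +
      a' x ^ 2 * ∑ i, v i * ∑ j, HX x i j * v j := by
    intro x
    simp only [pen, Matrix.add_mulVec, Matrix.smul_mulVec, Matrix.one_mulVec, dotProduct_add,
      dotProduct_smul, smul_eq_mul]
    rfl
  simp only [e]
  have h1 : Tendsto (fun x => ∑ i, v i * ∑ j, HX x i j * v j) G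
      (𝓝 (∑ i, v i * ∑ j, G2 i j * v j)) :=
    tendsto_finsetSum _ fun i _ => (tendsto_finsetSum _ fun j _ =>
      (P.HXt i j).mul_const _).const_mul _
  have h2 := ((((P.y0t.mul_const (v ⬝ᵥ v)).add (P.b't.mul_const (v ⬝ᵥ (B *ᵥ v)))).add_const
    (v ⬝ᵥ (D *ᵥ v))).add (P.a't.mul_const (v ⬝ᵥ (G1 *ᵥ v)))).add ((P.a't.pow 2).mul h1)
  simpa using h2

theorem PenData.U_dom (P : PenData F G B D G1 G2 x0 b a y0 b' a' HL HX ξ ξ0) (v : ι → ℝ) :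
    H201.Dom F G (UU B D G1 y0 b' a' HX ξ v) (TT B D G1 y0 b' a' HX ξ) := by
  have h1 := H387.sosF_cs (F := F) P.psd (fun _ => v) ξ
  have h2 : ∀ᶠ x in G, v ⬝ᵥ (pen B D G1 (y0 x) (b' x) (a' x) (HX x) *ᵥ v) <
      |v ⬝ᵥ (D *ᵥ v)| + 1 :=
    (P.tendsto_form v).eventually (gt_mem_nhds (by
      have := le_abs_self (v ⬝ᵥ (D *ᵥ v)); linarith))
  have h3 : SosF F G (fun (_ : L) x => (|v ⬝ᵥ (D *ᵥ v)| + 1) -
      v ⬝ᵥ (pen B D G1 (y0 x) (b' x) (a' x) (HX x) *ᵥ v)) :=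
    SosF.right (h2.mono fun x hx => by linarith)
  refine ⟨fr_form v _ ξ, |v ⬝ᵥ (D *ᵥ v)| + 1, by positivity, ?_⟩
  refine (h1.add (h3.mul P.sos)).congr' fun l x => ?_
  simp only [UU, TT]
  ring

theorem PenData.rem_sml (P : PenData F G B D G1 G2 x0 b a y0 b' a' HL HX ξ ξ0) (v : ι → ℝ) :
    H201.Sml F G (fun l x => a' x ^ 2 * (v ⬝ᵥ ((HX x - HL l) *ᵥ ξ l)))
      (fun l x => (a' x - a l) ^ 2) := by
  have hQ : SosF F G (fun l x => (a' x - a l) ^ 2) :=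
    SosF.sq ((FR.right a').sub (FR.left a))
  have h1 : H201.Dom F G (fun l x => v ⬝ᵥ ((HX x - HL l) *ᵥ ξ l))
      (fun l x => (a' x - a l) ^ 2) := by
    refine (H201.Dom.sum Finset.univ hQ (r := fun i l x => v i * ∑ j, (HX x i j - HL l i j) *
      ξ l j) fun i _ => H201.Dom.smul _ (H201.Dom.sum Finset.univ hQ
        (r := fun j l x => (HX x i j - HL l i j) * ξ l j) fun j _ => ?_)).congr' fun l x => rfl
    exact ((P.N1 i j).germ (GermFR.left (G := G) (P.ξt j))).congr' fun l x => mul_comm _ _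
  exact (h1.germ_small ((GermFR.right (F := F) (P.a't.pow 2)).congr (fun _ _ => rfl) (by simp)))

/-- expansion of the rows -/
theorem PenData.U_eq (P : PenData F G B D G1 G2 x0 b a y0 b' a' HL HX ξ ξ0)
    {e : L → ℝ} {β : L → ι → ℝ} (hB : ∀ᶠ l in F, B *ᵥ ξ l = e l • β l) (v : ι → ℝ) :
    EqF F G (UU B D G1 y0 b' a' HX ξ v) (fun l x => (y0 x - x0 l) * (v ⬝ᵥ ξ l) +
      (e l * (b' x - b l)) * (v ⬝ᵥ β l) +
      (a' x - a l) * (v ⬝ᵥ (G1 *ᵥ ξ l) + (a' x + a l) * (v ⬝ᵥ (HL l *ᵥ ξ l))) +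
      a' x ^ 2 * (v ⬝ᵥ ((HX x - HL l) *ᵥ ξ l))) := by
  refine EqF.of_eventually (fun l => pen B D G1 (x0 l) (b l) (a l) (HL l) *ᵥ ξ l = 0 ∧
    B *ᵥ ξ l = e l • β l) (fun _ => True) (P.ker.and hB) (by simp) ?_
  rintro l x ⟨h1, h2⟩ _
  simp only [UU]
  rw [pen_sub B D G1 _ _ _ _ _ _ _ _ _ v h1, h2, dotProduct_smul, smul_eq_mul]
  ring

theorem PenData.coef_germ (P : PenData F G B D G1 G2 x0 b a y0 b' a' HL HX ξ ξ0) (v : ι → ℝ) :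
    GermFR F G (fun l x => v ⬝ᵥ (G1 *ᵥ ξ l) + (a' x + a l) * (v ⬝ᵥ (HL l *ᵥ ξ l)))
      (v ⬝ᵥ (G1 *ᵥ ξ0)) := by
  have h1 : GermFR F G (fun l (_ : X) => v ⬝ᵥ (G1 *ᵥ ξ l)) (v ⬝ᵥ (G1 *ᵥ ξ0)) :=
    GermFR.left (tendsto_dot_mul P.ξt v)
  have h2 : Tendsto (fun l => v ⬝ᵥ (HL l *ᵥ ξ l)) F (𝓝 (v ⬝ᵥ (G2 *ᵥ ξ0))) := by
    simp only [dotProduct, Matrix.mulVec]
    exact tendsto_finsetSum _ fun i _ => (tendsto_finsetSum _ fun j _ =>
      (P.HLt i j).mul (P.ξt j)).const_mul _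
  have h3 : GermFR F G (fun l x => a' x + a l) (0 + 0) :=
    (GermFR.right P.a't).add (GermFR.left P.at_)
  exact (h1.add (h3.mul (GermFR.left h2))).congr (fun _ _ => rfl) (by simp)

/-- `t = y₀ - x₀` is in the module, when `⟨ξ₀, β₀⟩ = 0` and `α`-terms are controlled -/
theorem PenData.t_mem (P : PenData F G B D G1 G2 x0 b a y0 b' a' HL HX ξ ξ0)
    {e : L → ℝ} {β : L → ι → ℝ} {β0 : ι → ℝ} (hB : ∀ᶠ l in F, B *ᵥ ξ l = e l • β l)
    (hβ : ∀ i, Tendsto (fun l => β l i) F (𝓝 (β0 i))) (h0 : ξ0 ⬝ᵥ β0 = 0)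
    {Φ Q : L → X → ℝ} (hΦ : SosF F G Φ) (hQ : SosF F G Q)
    (hT : Zr F G Φ Q (UU B D G1 y0 b' a' HX ξ ξ0))
    (hζ : H201.Dom F G (fun l x => e l * (b' x - b l)) Q)
    (hα : Zr F G Φ Q (fun l x => (a' x - a l) * (ξ0 ⬝ᵥ (G1 *ᵥ ξ l) + (a' x + a l) *
      (ξ0 ⬝ᵥ (HL l *ᵥ ξ l)))))
    (hR : Zr F G Φ Q (fun l x => a' x ^ 2 * (ξ0 ⬝ᵥ ((HX x - HL l) *ᵥ ξ l)))) :
    Zr F G Φ Q (fun l x => y0 x - x0 l) := by
  have h1 : Zr F G Φ Q (fun l x => (ξ0 ⬝ᵥ β l) * (e l * (b' x - b l))) :=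
    Zr.of_sml hΦ (hζ.germ_small ((GermFR.left (G := G) (tendsto_dot hβ ξ0)).congr
      (fun _ _ => rfl) h0.symm))
  have h2 := ((hT.sub h1).sub hα).sub hR
  refine h2.congr ((FR.right y0).sub (FR.left x0)) ?_
  obtain ⟨A, hA, A', hA', h⟩ := P.U_eq hB ξ0
  refine ⟨A ∩ {l | ξ0 ⬝ᵥ ξ l = 1}, inter_mem hA P.norm, A', hA', fun l hl x hx => ?_⟩
  have h3 := h l hl.1 x hx
  have h4 : ξ0 ⬝ᵥ ξ l = 1 := hl.2
  beta_reduce at h3
  rw [h4] at h3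
  beta_reduce
  rw [h3]
  ring

/-- a row `⟨v, M(x) ξ⟩` with `v` orthogonal to `ξ₀` -/
theorem PenData.row_mem (P : PenData F G B D G1 G2 x0 b a y0 b' a' HL HX ξ ξ0)
    {e : L → ℝ} {β : L → ι → ℝ} {β0 : ι → ℝ} (hB : ∀ᶠ l in F, B *ᵥ ξ l = e l • β l)
    (hβ : ∀ i, Tendsto (fun l => β l i) F (𝓝 (β0 i))) (v : ι → ℝ) (h0 : v ⬝ᵥ ξ0 = 0)
    {Φ Q : L → X → ℝ} (hΦ : SosF F G Φ) (hQ : SosF F G Q)
    (hT : Zr F G Φ Q (UU B D G1 y0 b' a' HX ξ v))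
    (hζ : H201.Dom F G (fun l x => e l * (b' x - b l)) Q)
    (ht : Zr F G Φ Q (fun l x => y0 x - x0 l))
    (hR : Zr F G Φ Q (fun l x => a' x ^ 2 * (v ⬝ᵥ ((HX x - HL l) *ᵥ ξ l)))) :
    Zr F G Φ Q (fun l x => (v ⬝ᵥ β0) * (e l * (b' x - b l)) +
      (a' x - a l) * (v ⬝ᵥ (G1 *ᵥ ξ l) + (a' x + a l) * (v ⬝ᵥ (HL l *ᵥ ξ l)))) := by
  have h1 : Zr F G Φ Q (fun l x => (v ⬝ᵥ β l - v ⬝ᵥ β0) * (e l * (b' x - b l))) :=
    Zr.of_sml hΦ (hζ.germ_small ((GermFR.left (G := G) ((tendsto_dot hβ v).sub_const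
      (v ⬝ᵥ β0))).congr (fun _ _ => rfl) (by simp)))
  have h2 : Zr F G Φ Q (fun l x => (v ⬝ᵥ ξ l) * (y0 x - x0 l)) :=
    ht.germ (GermFR.left (G := G) (tendsto_dot P.ξt v))
  have h3 := ((hT.sub h1).sub h2).sub hR
  refine h3.congr ?_ ?_
  · refine ((FR.const _).mul ((FR.left e).mul ((FR.right b').sub (FR.left b)))).add ?_
    exact ((FR.right a').sub (FR.left a)).mul (germ_fr (P.coef_germ v))
  · obtain ⟨A, hA, A', hA', h⟩ := P.U_eq hB v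
    refine ⟨A, hA, A', hA', fun l hl x hx => ?_⟩
    have h3 := h l hl x hx
    beta_reduce at h3 ⊢
    rw [h3]
    ring

/-- **Lemma I.** `B ξ / e → -k g`, `g = G₁ ξ₀`: `(α - k e Z)² ≤ C T + δ ((e Z)² + α²)` -/
theorem PenData.lemI (P : PenData F G B D G1 G2 x0 b a y0 b' a' HL HX ξ ξ0)
    {e : L → ℝ} {β : L → ι → ℝ} {k : ℝ} (hB : ∀ᶠ l in F, B *ᵥ ξ l = e l • β l)
    (hβ : ∀ i, Tendsto (fun l => β l i) F (𝓝 (((-k) • (G1 *ᵥ ξ0)) i)))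
    (h0 : ξ0 ⬝ᵥ (G1 *ᵥ ξ0) = 0) (hg : G1 *ᵥ ξ0 ≠ 0) :
    Zr F G (TT B D G1 y0 b' a' HX ξ)
      (fun l x => (e l * (b' x - b l)) ^ 2 + (a' x - a l) ^ 2)
      (fun l x => (a' x - a l) - k * (e l * (b' x - b l))) := by
  have fα : FR (fun l x => a' x - a l) := (FR.right a').sub (FR.left a)
  have fζ : FR (fun l x => e l * (b' x - b l)) := (FR.left e).mul ((FR.right b').sub (FR.left b))
  have sα : SosF F G (fun l x => (a' x - a l) ^ 2) := SosF.sq fα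
  have sζ : SosF F G (fun l x => (e l * (b' x - b l)) ^ 2) := SosF.sq fζ
  have hQ := sζ.add sα
  have hΦ := P.sos
  have dζ : H201.Dom F G (fun l x => e l * (b' x - b l))
      (fun l x => (e l * (b' x - b l)) ^ 2 + (a' x - a l) ^ 2) :=
    (Dom.self fζ).mono (sα.congr' fun l x => by ring)
  have dα : H201.Dom F G (fun l x => a' x - a l)
      (fun l x => (e l * (b' x - b l)) ^ 2 + (a' x - a l) ^ 2) :=
    (Dom.self fα).mono (sζ.congr' fun l x => by ring)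
  have hU : ∀ v, Zr F G (TT B D G1 y0 b' a' HX ξ)
      (fun l x => (e l * (b' x - b l)) ^ 2 + (a' x - a l) ^ 2)
      (UU B D G1 y0 b' a' HX ξ v) := fun v => Zr.of_dom hQ (P.U_dom v)
  have hR : ∀ v, Zr F G (TT B D G1 y0 b' a' HX ξ)
      (fun l x => (e l * (b' x - b l)) ^ 2 + (a' x - a l) ^ 2)
      (fun l x => a' x ^ 2 * (v ⬝ᵥ ((HX x - HL l) *ᵥ ξ l))) := fun v =>
    Zr.of_sml hΦ ((P.rem_sml v).mono (sζ.congr' fun l x => by ring))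
  have hα0 : Zr F G (TT B D G1 y0 b' a' HX ξ)
      (fun l x => (e l * (b' x - b l)) ^ 2 + (a' x - a l) ^ 2)
      (fun l x => (a' x - a l) * (ξ0 ⬝ᵥ (G1 *ᵥ ξ l) + (a' x + a l) *
      (ξ0 ⬝ᵥ (HL l *ᵥ ξ l)))) :=
    (Zr.of_sml hΦ (dα.germ_small ((P.coef_germ ξ0).congr (fun _ _ => rfl) h0.symm))).congr'
      fun l x => mul_comm _ _
  have ht := P.t_mem hB hβ (by rw [dotProduct_smul, h0, smul_zero]) hΦ hQ (hU ξ0) dζ hα0 (hR ξ0)
  obtain ⟨g, hgd⟩ : ∃ g : ι → ℝ, g = G1 *ᵥ ξ0 := ⟨_, rfl⟩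
  have h0' : g ⬝ᵥ ξ0 = 0 := by rw [hgd, dotProduct_comm]; exact h0
  have hr := P.row_mem hB hβ g h0' hΦ hQ (hU g) dζ ht (hR g)
  have hgg : 0 < g ⬝ᵥ g := by
    rw [hgd]
    have h1 : 0 ≤ (G1 *ᵥ ξ0) ⬝ᵥ (G1 *ᵥ ξ0) := by
      simp only [dotProduct]; exact Finset.sum_nonneg fun i _ => mul_self_nonneg _
    refine lt_of_le_of_ne h1 fun h => hg ?_
    exact dotProduct_self_eq_zero.1 h.symm
  have hc : Zr F G (TT B D G1 y0 b' a' HX ξ)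
      (fun l x => (e l * (b' x - b l)) ^ 2 + (a' x - a l) ^ 2)
      (fun l x => (g ⬝ᵥ (G1 *ᵥ ξ l) + (a' x + a l) * (g ⬝ᵥ (HL l *ᵥ ξ l)) - g ⬝ᵥ g) *
        (a' x - a l)) := by
    refine Zr.of_sml hΦ (dα.germ_small (((P.coef_germ g).sub (GermFR.const (g ⬝ᵥ g))).congr
      (fun _ _ => rfl) ?_))
    rw [← hgd]; ring
  have h3 := (hr.sub hc).smul (g ⬝ᵥ g)⁻¹
  refine h3.congr' fun l x => ?_
  rw [dotProduct_smul, ← hgd, smul_eq_mul]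
  field_simp
  ring

/-- **Lemma II.** `B ξ / e → β₀ ≠ 0`, `⟨ξ₀, β₀⟩ = 0`: `(e Z)² ≤ C (T + α²)` -/
theorem PenData.lemII (P : PenData F G B D G1 G2 x0 b a y0 b' a' HL HX ξ ξ0)
    {e : L → ℝ} {β : L → ι → ℝ} {β0 : ι → ℝ} (hB : ∀ᶠ l in F, B *ᵥ ξ l = e l • β l)
    (hβ : ∀ i, Tendsto (fun l => β l i) F (𝓝 (β0 i))) (h0 : ξ0 ⬝ᵥ β0 = 0) (hβ0 : β0 ≠ 0) :
    H201.Dom F G (fun l x => e l * (b' x - b l))
      (fun l x => TT B D G1 y0 b' a' HX ξ l x + (a' x - a l) ^ 2) := by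
  have fα : FR (fun l x => a' x - a l) := (FR.right a').sub (FR.left a)
  have fζ : FR (fun l x => e l * (b' x - b l)) := (FR.left e).mul ((FR.right b').sub (FR.left b))
  have sα : SosF F G (fun l x => (a' x - a l) ^ 2) := SosF.sq fα
  have sζ : SosF F G (fun l x => (e l * (b' x - b l)) ^ 2) := SosF.sq fζ
  have hΦ := P.sos.add sα
  have dζ := Dom.self (F := F) (G := G) fζ
  have dα : H201.Dom F G (fun l x => a' x - a l)
      (fun l x => TT B D G1 y0 b' a' HX ξ l x + (a' x - a l) ^ 2) :=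
    (Dom.self fα).mono (P.sos.congr' fun l x => by ring)
  have hU : ∀ v, Zr F G (fun l x => TT B D G1 y0 b' a' HX ξ l x + (a' x - a l) ^ 2)
      (fun l x => (e l * (b' x - b l)) ^ 2)
      (UU B D G1 y0 b' a' HX ξ v) := fun v =>
    Zr.of_dom sζ ((P.U_dom v).mono (sα.congr' fun l x => by ring))
  have hR : ∀ v, Zr F G (fun l x => TT B D G1 y0 b' a' HX ξ l x + (a' x - a l) ^ 2)
      (fun l x => (e l * (b' x - b l)) ^ 2)
      (fun l x => a' x ^ 2 * (v ⬝ᵥ ((HX x - HL l) *ᵥ ξ l))) := fun v =>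
    Zr.of_dom sζ ((P.rem_sml v).dom.mono (P.sos.congr' fun l x => by ring))
  have hα : ∀ v, Zr F G (fun l x => TT B D G1 y0 b' a' HX ξ l x + (a' x - a l) ^ 2)
      (fun l x => (e l * (b' x - b l)) ^ 2)
      (fun l x => (a' x - a l) * (v ⬝ᵥ (G1 *ᵥ ξ l) + (a' x + a l) *
      (v ⬝ᵥ (HL l *ᵥ ξ l)))) := fun v =>
    (Zr.of_dom sζ (dα.germ (P.coef_germ v))).congr' fun l x => mul_comm _ _
  have ht := P.t_mem hB hβ h0 hΦ sζ (hU ξ0) dζ (hα ξ0) (hR ξ0)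
  have hr := P.row_mem hB hβ β0 (by rw [dotProduct_comm]; exact h0) hΦ sζ (hU β0) dζ ht (hR β0)
  have hββ : 0 < β0 ⬝ᵥ β0 := by
    have h1 : 0 ≤ β0 ⬝ᵥ β0 := by
      simp only [dotProduct]; exact Finset.sum_nonneg fun i _ => mul_self_nonneg _
    refine lt_of_le_of_ne h1 fun h => hβ0 ?_
    exact dotProduct_self_eq_zero.1 h.symm
  have h3 := (hr.sub (hα β0)).smul (β0 ⬝ᵥ β0)⁻¹
  have h4 : Zr F G (fun l x => TT B D G1 y0 b' a' HX ξ l x + (a' x - a l) ^ 2)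
      (fun l x => (e l * (b' x - b l)) ^ 2) (fun l x => e l * (b' x - b l)) := by
    refine h3.congr' fun l x => ?_
    field_simp
    ring
  obtain ⟨C, hC, h⟩ := h4.le (1 / 2) (by norm_num)
  exact ⟨fζ, 2 * C, by positivity, (h.smul (c := 2) (by norm_num)).congr' fun l x => by ring⟩

end Data

/-! ### the combination of two representations -/

/-- replacing `Φ` by `Φ'` with `c Φ ≤ Φ' + δ Q` for all `δ` -/
theorem Zr.change (H : Zr F G Φ Q r) (h : ∃ c : ℝ, 0 < c ∧ ∀ δ : ℝ, 0 < δ →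
    SosF F G (fun l x => Φ' l x + δ * Q l x - c * Φ l x)) : Zr F G Φ' Q r := by
  obtain ⟨c, hc, h⟩ := h
  refine ⟨H.fr, fun δ hδ => ?_⟩
  obtain ⟨C, hC, h1⟩ := H.le (δ / 2) (by positivity)
  have h2 := (h (c * δ / (2 * C)) (by positivity)).smul (c := C / c) (by positivity)
  refine ⟨C / c, by positivity, (h1.add h2).congr' fun l x => ?_⟩
  field_simp
  ring

theorem Zr.of_sml' (hΦ : ∀ δ : ℝ, 0 < δ → SosF F G (fun l x => Φ l x + δ * Q l x))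
    (H : H201.Sml F G r Q) : Zr F G Φ Q r :=
  ⟨H.fr, fun δ hδ => ⟨1, one_pos, ((hΦ (δ / 2) (by positivity)).add
    (H.le (δ / 2) (by positivity))).congr' fun l x => by ring⟩⟩

/-- `r² ≤ C (Φ₁ + r₁²)` with `Φ₁ ≤ C Φ + δ Q` and `r₁` in the module -/
theorem Zr.of_dom_add {Φ1 r1 : L → X → ℝ} (hQ : SosF F G Q)
    (hΦ : ∀ δ : ℝ, 0 < δ → SosF F G (fun l x => Φ l x + δ * Q l x))
    (H : H201.Dom F G r (fun l x => Φ1 l x + r1 l x ^ 2)) (h1 : Zr F G Φ Q r1)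
    (h2 : ∃ c : ℝ, 0 < c ∧ ∀ δ : ℝ, 0 < δ →
      SosF F G (fun l x => Φ l x + δ * r1 l x ^ 2 - c * Φ1 l x)) : Zr F G Φ Q r := by
  obtain ⟨hf, C, hC, h⟩ := H
  obtain ⟨c, hc, h2⟩ := h2
  refine ⟨hf, fun δ hδ => ?_⟩
  -- `r² ≤ C Φ₁ + C r₁²`, `c Φ₁ ≤ Φ + r₁²`
  have h3 := (h2 1 one_pos).smul (c := C / c) (by positivity)
  obtain ⟨η, hη⟩ : ∃ η : ℝ, η = δ / (C / c + C) := ⟨_, rfl⟩
  have hηpos : 0 < η := by rw [hη]; positivity
  obtain ⟨C', hC', h4⟩ := h1.le η hηpos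
  have h5 := h4.smul (c := C / c + C) (by positivity)
  refine ⟨C / c + (C / c + C) * C', by positivity, ((h.add h3).add h5).congr' fun l x => ?_⟩
  have e1 : (C / c + C) * η = δ := by rw [hη]; exact mul_div_cancel₀ _ (by positivity)
  have e2 : C / c * c = C := div_mul_cancel₀ _ hc.ne'
  linear_combination (-Q l x) * e1 + Φ1 l x * e2

/-- **Case 5c(ii), abstract form.** Rep `f`: `T`, `ζ = a Z`, `α`, with `(α - k ζ)² ≤ C T +
δ (ζ² + α²)`. Rep `c₁`: `T_c`, `ζ_c`, `α_c` with `ζ_c² ≤ C (T_c + α_c²)`, where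
`α_c = u (α - k ζ) + j α` (`j` infinitesimal) and `ζ = v ζ_c`. In both representations
`c₀ T ≤ S + δ α²`. Then `S` is a sum of squares. -/
theorem step_abs {S T Tc ζ α ζc αc u j v : L → X → ℝ} {k cu cv : ℝ}
    (fζ : FR ζ) (fα : FR α) (hT : SosF F G T)
    (hE : ∃ c : ℝ, 0 < c ∧ ∀ δ : ℝ, 0 < δ → SosF F G (fun l x => S l x + δ * α l x ^ 2 - c * T l x))
    (hI : Zr F G T (fun l x => ζ l x ^ 2 + α l x ^ 2) (fun l x => α l x - k * ζ l x))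
    (hEc : ∃ c : ℝ, 0 < c ∧ ∀ δ : ℝ, 0 < δ →
      SosF F G (fun l x => S l x + δ * αc l x ^ 2 - c * Tc l x))
    (hII : H201.Dom F G ζc (fun l x => Tc l x + αc l x ^ 2))
    (hu : GermFR F G u cu) (hj : GermFR F G j 0) (hv : GermFR F G v cv)
    (fαc : FR αc)
    (hαc : EqF F G αc (fun l x => u l x * (α l x - k * ζ l x) + j l x * α l x))
    (hζc : EqF F G ζ (fun l x => v l x * ζc l x)) : SosF F G S := by
  have flam : FR (fun l x => α l x - k * ζ l x) := fα.sub (fζ.smul k)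
  have slam : SosF F G (fun l x => (α l x - k * ζ l x) ^ 2) := SosF.sq flam
  have sζ : SosF F G (fun l x => ζ l x ^ 2) := SosF.sq fζ
  obtain ⟨W, hW⟩ : ∃ W : L → X → ℝ, W = fun l x => (α l x - k * ζ l x) ^ 2 + ζ l x ^ 2 :=
    ⟨_, rfl⟩
  have sW : SosF F G W := by rw [hW]; exact slam.add sζ
  -- `α² ≤ (2 + 2 k²) W`
  have hαW : SosF F G (fun l x => (2 + 2 * k ^ 2) * W l x - α l x ^ 2) := by
    have h1 : SosF F G (fun l x => ((α l x - k * ζ l x) - k * ζ l x) ^ 2) :=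
      SosF.sq (flam.sub (fζ.smul k))
    have h2 := slam.smul (c := 2 * k ^ 2) (by positivity)
    have h3 := sζ.smul (c := 2) (by norm_num)
    refine ((h1.add h2).add h3).congr' fun l x => ?_
    rw [hW]; ring
  have hQW : SosF F G (fun l x => (3 + 2 * k ^ 2) * W l x - (ζ l x ^ 2 + α l x ^ 2)) := by
    refine (hαW.add slam).congr' fun l x => ?_
    rw [hW]; ring
  have dα : H201.Dom F G α W := ⟨fα, _, by positivity, hαW⟩
  -- rep `f`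
  have hSW : ∃ c : ℝ, 0 < c ∧ ∀ δ : ℝ, 0 < δ →
      SosF F G (fun l x => S l x + δ * W l x - c * T l x) := by
    obtain ⟨c, hc, h⟩ := hE
    refine ⟨c, hc, fun δ hδ => ?_⟩
    have h1 := h (δ / (2 + 2 * k ^ 2)) (by positivity)
    have h2 := hαW.smul (c := δ / (2 + 2 * k ^ 2)) (by positivity)
    refine (h1.add h2).congr' fun l x => ?_
    have : (2 + 2 * k ^ 2) ≠ 0 := by positivity
    field_simp
    ring
  have hS0 : ∀ δ : ℝ, 0 < δ → SosF F G (fun l x => S l x + δ * W l x) := by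
    obtain ⟨c, hc, h⟩ := hSW
    exact fun δ hδ => ((h δ hδ).add (hT.smul hc.le)).congr' fun l x => by ring
  have hlam : Zr F G S W (fun l x => α l x - k * ζ l x) :=
    (hI.monoQ (K := 3 + 2 * k ^ 2) (by positivity) hQW).change hSW
  -- rep `c₁`
  have hαc' : Zr F G S W αc :=
    ((hlam.germ hu).add (Zr.of_sml' hS0 (dα.germ_small hj))).congr fαc hαc
  have hζc' : Zr F G S W ζc := Zr.of_dom_add sW hS0 hII hαc' hEc
  have hζ : Zr F G S W ζ := (hζc'.germ hv).congr fζ hζc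
  have := Zr.absorb2 (r := fun l x => α l x - k * ζ l x) (s := ζ)
    (by rw [hW] at hlam; exact hlam) (by rw [hW] at hζ; exact hζ)
  exact sosF_of_le (slam.add sζ) this

end Vale.Agent.P256.H465
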